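import Vale.Agent.P125.Defs
import Vale.Agent.P125.Main

namespace Vale.Agent.Results.P125.A_full

open Vale.Agent.P125

/-- Every real normed space (in particular every real Banach space) with Markov type `p` for
some `p > 1` admits an equivalent uniformly smooth norm and an equivalent uniformly convex norm. -/
theorem result (X : Type*) [NormedAddCommGroup X] [NormedSpace ℝ X] (p : ℝ) (hp : 1 < p)
    (h : HasMarkovType X p) :
    (∃ N : Seminorm ℝ X, IsEquivalentNorm N ∧ IsUniformlySmooth N) ∧
      ∃ N : Seminorm ℝ X, IsEquivalentNorm N ∧ IsUniformlyConvex N :=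
  Vale.Agent.P125.main X p hp h

end Vale.Agent.Results.P125.A_full
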